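import Mathlib
import Vale.Agent.P069.Amuc
import Vale.Agent.P069.NonAuc

/-!
# A reflexive AMUC Banach space without an equivalent AUC norm

The space is the dual of a James tree type space `Z` on the disjoint union of the infinitely
branching trees of height `n`, `n = 0, 1, 2, …` (all joined at a virtual root where functions
vanish).  The norm of `Z` is the square variation along families of pairwise disjoint segments.
-/

namespace Vale.Agent.Results.P069.Main

variable {X : Type*} [NormedAddCommGroup X] [NormedSpace ℝ X]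

/-- `F` belongs to `cof(X)`: it is a closed subspace of finite codimension. -/
def IsCof (F : Submodule ℝ X) : Prop :=
  IsClosed (F : Set X) ∧ FiniteDimensional ℝ (X ⧸ F)

/-- The modulus of asymptotic uniform convexity of `N` at `t`:
the infimum over `x` with `N x = 1` of the supremum over `F ∈ cof(X)` of the infimum over
`y ∈ F` with `N y = 1` of `N (x + t y) - 1`. -/
noncomputable def aucModulus (N : Seminorm ℝ X) (t : ℝ) : EReal :=
  ⨅ (x : X) (_ : N x = 1), ⨆ (F : Submodule ℝ X) (_ : IsCof F),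
    ⨅ (y : X) (_ : y ∈ F ∧ N y = 1), ((N (x + t • y) - 1 : ℝ) : EReal)

/-- The modulus of asymptotic midpoint uniform convexity of `N` at `t`:
the infimum over `x` with `N x = 1` of the supremum over `F ∈ cof(X)` of the infimum over
`y ∈ F` with `N y = 1` of `max (N (x + t y)) (N (x - t y)) - 1`. -/
noncomputable def amucModulus (N : Seminorm ℝ X) (t : ℝ) : EReal :=
  ⨅ (x : X) (_ : N x = 1), ⨆ (F : Submodule ℝ X) (_ : IsCof F),
    ⨅ (y : X) (_ : y ∈ F ∧ N y = 1),
      ((max (N (x + t • y)) (N (x - t • y)) - 1 : ℝ) : EReal)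

/-- `N` is asymptotically uniformly convex. -/
def IsAUC (N : Seminorm ℝ X) : Prop := ∀ t : ℝ, 0 < t → 0 < aucModulus N t

/-- `N` is asymptotically midpoint uniformly convex. -/
def IsAMUC (N : Seminorm ℝ X) : Prop := ∀ t : ℝ, 0 < t → 0 < amucModulus N t

/-- `N` is a norm on `X` equivalent to the given norm. -/
def IsEquivNorm (N : Seminorm ℝ X) : Prop :=
  ∃ c C : ℝ, 0 < c ∧ 0 < C ∧ ∀ x, c * ‖x‖ ≤ N x ∧ N x ≤ C * ‖x‖

variable (X)

/-- `X` has an equivalent AUC norm. -/
def AUCRenormable : Prop := ∃ N : Seminorm ℝ X, IsEquivNorm N ∧ IsAUC N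

/-- `X` has an equivalent AMUC norm. -/
def AMUCRenormable : Prop := ∃ N : Seminorm ℝ X, IsEquivNorm N ∧ IsAMUC N

/-- `X` is reflexive: the canonical embedding into the bidual is onto. -/
def IsReflexive : Prop := Function.Surjective (NormedSpace.inclusionInDoubleDual ℝ X)

variable {X}

lemma equiv_norm : IsEquivNorm (normSeminorm ℝ X) :=
  ⟨1, 1, one_pos, one_pos, fun x => by simp⟩

lemma auc_of_finite [FiniteDimensional ℝ X] : AUCRenormable X := by
  refine ⟨normSeminorm ℝ X, equiv_norm, fun t _ => ?_⟩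
  have h : (⊤ : EReal) ≤ aucModulus (normSeminorm ℝ X) t := by
    unfold aucModulus
    refine le_iInf₂ fun x _ => ?_
    refine le_iSup₂_of_le ⊥ ⟨Submodule.closed_of_finiteDimensional _, inferInstance⟩ ?_
    refine le_iInf₂ fun y hy => ?_
    exfalso
    obtain ⟨h1, h2⟩ := hy
    rw [Submodule.mem_bot] at h1
    rw [h1] at h2
    simp at h2
  exact lt_of_lt_of_le EReal.zero_lt_top h

/-- There is an infinite-dimensional reflexive real Banach space with an equivalent
asymptotically midpoint uniformly convex norm but without any equivalent asymptotically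
uniformly convex norm. -/
theorem result : ∃ (X : Type) (_ : NormedAddCommGroup X) (_ : NormedSpace ℝ X),
    CompleteSpace X ∧ ¬ FiniteDimensional ℝ X ∧ IsReflexive X ∧
      AMUCRenormable X ∧ ¬ AUCRenormable X := by
  obtain ⟨Z, i1, i2, _, ⟨m⟩⟩ := Vale.Agent.P069.exists_model
  have hno : ¬ AUCRenormable (StrongDual ℝ Z) := by
    rintro ⟨N, ⟨c, C, hc, hC, hcC⟩, hN⟩
    have ht0 : 0 < c / (2 * C) := by positivity
    obtain ⟨d, hd0, hd⟩ := EReal.lt_iff_exists_real_btwn.1 (hN _ ht0)
    have hd0' : 0 < d := by exact_mod_cast hd0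
    refine Vale.Agent.P069.not_auc hc hC hd0' (fun f => (hcC f).1) (fun f => (hcC f).2) ?_ m
    intro x hx
    have h1 : (d : EReal) < ⨆ (F : Submodule ℝ (StrongDual ℝ Z)) (_ : IsCof F),
        ⨅ (y : StrongDual ℝ Z) (_ : y ∈ F ∧ N y = 1),
          ((N (x + (c / (2 * C)) • y) - 1 : ℝ) : EReal) :=
      lt_of_lt_of_le hd (iInf₂_le x hx)
    obtain ⟨F, hF⟩ := lt_iSup_iff.1 h1
    obtain ⟨hFc, hF2⟩ := lt_iSup_iff.1 hF
    refine ⟨F, hFc.1, hFc.2, fun y hy hy1 => ?_⟩
    have h2 : (d : EReal) < ((N (x + (c / (2 * C)) • y) - 1 : ℝ) : EReal) :=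
      lt_of_lt_of_le hF2 (iInf₂_le y ⟨hy, hy1⟩)
    have h3 : d < N (x + (c / (2 * C)) • y) - 1 := by exact_mod_cast h2
    linarith
  refine ⟨StrongDual ℝ Z, inferInstance, inferInstance, inferInstance, ?_, ?_, ?_, hno⟩
  · intro hfin
    exact hno auc_of_finite
  · intro Λ
    exact Vale.Agent.P069.X_reflexive m Λ
  · refine ⟨normSeminorm ℝ _, equiv_norm, fun t ht => ?_⟩
    obtain ⟨c, hc, h⟩ := Vale.Agent.P069.amuc_dual m ht
    have h1 : (c : EReal) ≤ amucModulus (normSeminorm ℝ (StrongDual ℝ Z)) t := by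
      unfold amucModulus
      refine le_iInf₂ fun f hf => ?_
      obtain ⟨F, hF1, hF2, hF3⟩ := h f hf
      refine le_iSup₂_of_le F ⟨hF1, hF2⟩ ?_
      refine le_iInf₂ fun g hg => ?_
      have := hF3 g hg.1 hg.2
      rw [EReal.coe_le_coe_iff]
      simp only [coe_normSeminorm]
      linarith
    exact lt_of_lt_of_le (by exact_mod_cast hc) h1

end Vale.Agent.Results.P069.Main
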